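import Vale.Agent.Lib.P335.G.GFinal

/-!
P335 (Kannan-Tetali-Vempala conjecture, simple undirected form).  For every `n ≥ 4` and EVERY degree
vector `d` on `n` vertices, the switch chain of the problem is within total variation distance `1/4`
of the uniform distribution on the realizations of `d`, from every start, at every time `t ≥ n ^ 6`.
Hence `t_mix(d) ≤ n ^ 6` for all graphical `d`: the conjecture holds with `p(n) = n ^ 6`.
No stability or degree assumption is made.
-/

namespace Vale.Agent.Results.P335.AllDegreesRapidMixing

open Vale.Agent.Lib.P335

theorem result : ∀ (n : ℕ) (d : Fin n → ℕ), 4 ≤ n → ∀ t : ℕ, n ^ 6 ≤ t → MixedAt n d t :=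
  fun n d hn t ht => all_mixed n d hn t ht

end Vale.Agent.Results.P335.AllDegreesRapidMixing
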