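import Vale.Agent.Lib.P335.Literal

/-!
P335 (Kannan-Tetali-Vempala conjecture, simple undirected form), with the chain and the mixing time
written exactly as in the problem text.  `ktvP n d` is the switch chain `P_d`: with probability `1/2`
stay put, otherwise choose a 4-set `S` uniformly, then one of the six ordered pairs `(F, F')` of
distinct perfect matchings of the complete graph on `S` uniformly, and replace `F` by `F'` if both
edges of `F` are present and both edges of `F'` are absent.  `tmix n d` is the least `t` such that
from every start the law after `t` steps is within total variation `1/4` of uniform.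
The theorem: `t_mix(d) ≤ n ^ 6` for every `n ≥ 4` and every degree vector `d`.
-/

namespace Vale.Agent.Results.P335.KTVConjecture

open Vale.Agent.Lib.P335

theorem result : ∀ (n : ℕ) (d : Fin n → ℕ), 4 ≤ n →
    IsLeast (mixedTimes n d) (tmix n d) ∧ tmix n d ≤ n ^ 6 :=
  fun n d hn => ⟨tmix_isLeast n d hn, tmix_le n d hn⟩

end Vale.Agent.Results.P335.KTVConjecture
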