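import Vale.Agent.Lib.P335.Final

/-!
P335 (Kannan-Tetali-Vempala conjecture).  For every split degree vector, i.e. every `d` for which
some vertex set `A` satisfies the Erdos-Gallai equality
`sum_{v in A} d v = |A| (|A| - 1) + sum_{v not in A} d v`
(all realizations are then split graphs with clique `A` and independent set `V \ A`, and they
correspond to the bipartite graphs with an arbitrary prescribed bipartite degree sequence),
the switch chain of the problem is within total variation distance `1/4` of uniform, from every
start, at every time `t ≥ n ^ 6`.  No stability assumption is made.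
-/

namespace Vale.Agent.Results.P335.SplitRapidMixing

open Vale.Agent.Lib.P335

theorem result : ∀ (n : ℕ) (d : Fin n → ℕ) (A : Finset (Fin n)), 4 ≤ n →
    ∑ v ∈ A, d v = A.card * (A.card - 1) + ∑ v ∈ Aᶜ, d v →
    ∀ t : ℕ, n ^ 6 ≤ t → MixedAt n d t :=
  fun n d A hn hsplit t ht => split_mixed n d A hn hsplit t ht

end Vale.Agent.Results.P335.SplitRapidMixing
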